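import Vale.Agent.P068.Defs
import Vale.Agent.P068.Ray

namespace Vale.Agent.Results.P068.CHDisproof

open Set Vale.Agent.P068

/-- Under the continuum hypothesis both conjectures fail on a countable ground set. -/
theorem result (hCH : Cardinal.aleph 1 = (Cardinal.continuum : Cardinal.{0})) :
    (∃ M N : Matroid ℕ, M.E = univ ∧ N.E = univ ∧ ¬ SatisfiesIntersection M N) ∧
      ∃ M : Bool → Matroid ℕ, (∀ i, (M i).E = univ) ∧ ¬ HasPackingCovering M univ :=
  ⟨exists_counterexample (splitHyp_of_CH hCH) (domHyp_of_CH hCH),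
    exists_counterexample_pc (splitHyp_of_CH hCH) (domHyp_of_CH hCH)⟩

end Vale.Agent.Results.P068.CHDisproof
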