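import Vale.Agent.P068.Defs
import Vale.Agent.P068.Hyp
import Vale.Agent.P068.Ray

namespace Vale.Agent.Results.P068.ReapingDominating

open Set Vale.Agent.P068

/-- If the reaping number and the dominating number both equal the continuum, then both
conjectures fail on a countable ground set. -/
theorem result (h : (∀ M N : Matroid ℕ, M.E = univ → N.E = univ → SatisfiesIntersection M N) ∨
      (∀ M : Bool → Matroid ℕ, (∀ i, (M i).E = univ) → HasPackingCovering M univ)) :
    (SmallReaping ∨ SmallDominating) ∧ Cardinal.aleph 1 < (Cardinal.continuum : Cardinal.{0}) := by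
  have key : ¬ (SplitHyp ∧ DomHyp) := by
    rintro ⟨h1, h2⟩
    rcases h with h | h
    · obtain ⟨M, N, hM, hN, hMN⟩ := exists_counterexample h1 h2
      exact hMN (h M N hM hN)
    · obtain ⟨M, hM, hMN⟩ := exists_counterexample_pc h1 h2
      exact hMN (h M hM)
  constructor
  · by_contra hcon
    rw [not_or] at hcon
    apply key
    constructor
    · intro 𝒜 hs hinf
      by_contra h3
      apply hcon.1
      refine ⟨𝒜, hs, hinf, fun b => ?_⟩
      by_contra h4
      apply h3
      refine ⟨b, fun A hA => ?_⟩
      constructor
      · intro h5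
        exact h4 ⟨A, hA, Or.inl h5⟩
      · intro h5
        exact h4 ⟨A, hA, Or.inr h5⟩
    · intro 𝓕 hs
      by_contra h3
      apply hcon.2
      refine ⟨𝓕, hs, fun f => ?_⟩
      by_contra h4
      apply h3
      refine ⟨f, fun g hg m => ?_⟩
      by_contra h5
      apply h4
      refine ⟨g, hg, m, fun n hn => ?_⟩
      by_contra h6
      exact h5 ⟨n, hn, not_le.1 h6⟩
  · refine lt_of_le_of_ne Cardinal.aleph_one_le_continuum ?_
    intro hCH
    exact key ⟨splitHyp_of_CH hCH, domHyp_of_CH hCH⟩

end Vale.Agent.Results.P068.ReapingDominating
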